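import Vale.Agent.P066.Basic

set_option linter.unusedSectionVars false
set_option linter.unusedVariables false
set_option linter.unusedSimpArgs false

namespace Vale.Agent.P066

open Finset

section Generic

variable {C : Type*} [LinearOrder C] [Fintype C] {A : Type*} [CommRing A] (q : A) (x : C → A)

/-- transfer step keeping two marks -/
def N2 (F : C → C → A) (b c : C) : A := x c * ∑ a, ee q b a * ee q c a * F a b

/-- transfer step removing one of two marks -/
def R2 (F : C → C → A) (b : C) : A := ∑ a, ee q b a * F a b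

def QQ (y : ℕ) (a b : C) : A :=
  ∑ V ∈ powersetCard y (univ : Finset C), cE' q V a * cE' q V b * xs x V

def PP (y : ℕ) (a b : C) : A := x a * x b * QQ q x y a b

lemma cE'_insert {V : Finset C} {a b : C} (hab : a ≠ b) (ha : a ∉ V) :
    cE' q (insert a V) b = ee q b a * cE' q V b := by
  unfold cE' ee
  have hb : b ∈ insert a V ↔ b ∈ V := by
    rw [mem_insert]
    constructor
    · rintro (h | h)
      · exact absurd h.symm hab
      · exact h
    · exact Or.inr
  by_cases hbV : b ∈ V
  · simp [hb, hbV]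
  · simp only [hb, hbV, if_false, if_neg hab]
    unfold pos
    rw [filter_insert]
    by_cases hlt : a < b
    · rw [if_pos hlt, if_pos hlt, card_insert_of_notMem (fun h => ha (mem_filter.mp h).1)]
      ring
    · rw [if_neg hlt, if_neg hlt, one_mul]

lemma cE_mul_cE'_self (V : Finset C) (a : C) : cE q V a * cE' q V a = 0 := by
  unfold cE cE'; split_ifs <;> simp

lemma eQ (a b : C) (y : ℕ) :
    ee q b a * (x a * QQ q x y a b) =
      ∑ V ∈ powersetCard (y + 1) (univ : Finset C), cE q V a * cE' q V b * xs x V := by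
  by_cases hab : a = b
  · subst hab
    simp [ee, cE_mul_cE'_self]
  · have h1 : ∀ V : Finset C, cE q V a * cE' q V b * xs x V =
        if a ∈ V then q ^ pos V a * cE' q V b * xs x V else 0 := by
      intro V; unfold cE; split_ifs <;> simp
    simp only [h1]
    rw [sum_insert_bij a y (fun V => q ^ pos V a * cE' q V b * xs x V)]
    unfold QQ
    rw [mul_sum, mul_sum]
    apply sum_congr rfl
    intro V _
    by_cases haV : a ∈ V
    · simp [haV, cE']
    · simp only [haV, if_false]
      rw [pos_insert_self, cE'_insert q hab haV, xs_insert x haV]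
      simp only [cE', haV, if_false]
      ring

lemma sum_W_cE (V : Finset C) (W : C → A) :
    ∑ a, W a * cE q V a = ∑ a ∈ V, W a * q ^ pos V a := by
  rw [← sum_subset (subset_univ V)]
  · apply sum_congr rfl
    intro a ha
    simp [cE, ha]
  · intro a _ ha
    simp [cE, ha]

variable [IsDomain A] (hq : q ≠ 1)
include hq

lemma N2_PP (y : ℕ) (b c : C) :
    N2 q x (PP q x y) b c = PP q x (y + 1) b c + q * qn q y * (x c * E q x (y + 2) b) := by
  have h1 : ∀ a, ee q b a * ee q c a * PP q x y a b =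
      x b * (ee q c a * (ee q b a * (x a * QQ q x y a b))) := by
    intro a; unfold PP; ring
  unfold N2
  simp only [h1]
  simp only [eQ, ← mul_sum]
  have h2 : ∑ a, ee q c a * ∑ V ∈ powersetCard (y + 1) (univ : Finset C),
        cE q V a * cE' q V b * xs x V =
      ∑ V ∈ powersetCard (y + 1) (univ : Finset C),
        (∑ a, ee q c a * cE q V a) * (cE' q V b * xs x V) := by
    simp only [mul_sum, sum_mul]
    rw [sum_comm]
    apply sum_congr rfl; intro V _
    apply sum_congr rfl; intro a _
    ring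
  rw [h2]
  have h3 : ∀ V ∈ powersetCard (y + 1) (univ : Finset C),
      (∑ a, ee q c a * cE q V a) * (cE' q V b * xs x V) =
        cE' q V b * cE' q V c * xs x V + q * qn q y * (cE' q V b * xs x V) := by
    intro V hV
    have hc : V.card = y + 1 := (mem_powersetCard.mp hV).2
    rw [sum_W_cE, perU_O0 q hq V c (by omega), hc]
    simp only [Nat.add_sub_cancel]
    ring
  rw [sum_congr rfl h3, sum_add_distrib]
  have h4 : E q x (y + 2) b = x b * E' q x (y + 1) b := E_succ q x (y + 1) b
  rw [h4]
  unfold PP QQ E'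
  simp only [mul_sum]
  rw [mul_add, mul_add]
  simp only [mul_sum]
  congr 1
  · apply sum_congr rfl; intro V _; ring
  · apply sum_congr rfl; intro V _; ring

omit hq in
lemma R2_PP (y : ℕ) (b : C) :
    R2 q (PP q x y) b = qn q (y + 1) * E q x (y + 2) b := by
  have h1 : ∀ a, ee q b a * PP q x y a b =
      x b * (ee q b a * (x a * QQ q x y a b)) := by
    intro a; unfold PP; ring
  unfold R2
  simp only [h1]
  simp only [eQ, ← mul_sum]
  have h2 : ∑ a, ∑ V ∈ powersetCard (y + 1) (univ : Finset C),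
        cE q V a * cE' q V b * xs x V =
      ∑ V ∈ powersetCard (y + 1) (univ : Finset C),
        (∑ a, 1 * cE q V a) * (cE' q V b * xs x V) := by
    simp only [mul_sum, sum_mul]
    rw [sum_comm]
    apply sum_congr rfl; intro V _
    apply sum_congr rfl; intro a _
    ring
  rw [h2]
  have h3 : ∀ V ∈ powersetCard (y + 1) (univ : Finset C),
      (∑ a, 1 * cE q V a) * (cE' q V b * xs x V) =
        qn q (y + 1) * (cE' q V b * xs x V) := by
    intro V hV
    have hc : V.card = y + 1 := (mem_powersetCard.mp hV).2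
    rw [sum_W_cE]
    simp only [one_mul]
    rw [S_all, hc]
  rw [sum_congr rfl h3]
  have h4 : E q x (y + 2) b = x b * E' q x (y + 1) b := E_succ q x (y + 1) b
  rw [h4]
  unfold E'
  simp only [mul_sum]
  apply sum_congr rfl; intro V _; ring

omit hq in
lemma qi_one_mul_qn (p : Prop) [Decidable p] (m : ℕ) (hm : 1 ≤ m) :
    qi q p 1 * qn q m = qi q p m + q * qn q (m - 1) := by
  obtain ⟨k, rfl⟩ : ∃ k, m = k + 1 := ⟨m - 1, by omega⟩
  simp only [Nat.add_sub_cancel]
  have h : qn q (k + 1) = 1 + q * qn q k := by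
    unfold qn
    rw [sum_range_succ', mul_sum, add_comm]
    simp [pow_succ', mul_comm]
  unfold qi
  split_ifs with hp
  · rw [qn_succ]; ring
  · rw [h]; ring

/-- first half of a symmetrised product -/
def TT (α s y : ℕ) (b c : C) : A := qi q (b < c) α * E q x s b * E q x y c

/-- second half of a symmetrised product -/
def TT' (α s y : ℕ) (b c : C) : A := qi q (c < b) α * E q x s b * E q x y c

def Sym (α s y : ℕ) (b c : C) : A := TT q x α s y b c + TT' q x α y s b c

def SS (m N i : ℕ) (b c : C) : A :=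
  ∑ j ∈ range i, q ^ j * Sym q x (m - 1 - 2 * j) (N - j - 1) (j + 1) b c

def PsiE (N i : ℕ) (b c : C) : A := SS q x (2 * i) N i b c

def PsiO (N i : ℕ) (b c : C) : A :=
  q ^ i * TT q x 0 (N - i - 1) (i + 1) b c + SS q x (2 * i + 1) N i b c

def Th (N j : ℕ) (b : C) : A := E q x (j + 1) b * E' q x (N - j - 1) b

omit hq in
lemma Th_zero (N : ℕ) (hN : 1 ≤ N) (b : C) : Th q x N 0 b = E q x N b := by
  obtain ⟨k, rfl⟩ : ∃ k, N = k + 1 := ⟨N - 1, by omega⟩
  unfold Th
  rw [E_succ q x k b, zero_add, E_one]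
  simp

omit hq in
lemma Th_succ (N j : ℕ) (hj : j + 2 ≤ N) (b : C) :
    E q x (N - j - 1) b * E' q x (j + 1) b = Th q x N (j + 1) b := by
  obtain ⟨t, rfl⟩ : ∃ t, N = j + 2 + t := ⟨N - (j + 2), by omega⟩
  unfold Th
  have e1 : j + 2 + t - j - 1 = t + 1 := by omega
  have e2 : j + 2 + t - (j + 1) - 1 = t := by omega
  rw [e1, e2, E_succ q x t b, E_succ q x (j + 1) b]
  ring

lemma N2_Sym (b c : C) (hbc : b ≠ c) (α s y : ℕ) (hs : α + 3 ≤ s) (hy : 2 ≤ y + (α + 1)) :
    N2 q x (Sym q x (α + 1) s y) b c =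
      qi q (b < c) 1 * x c * (qn q (α + 2) * (E q x y b * E' q x s b)
          - q * qn q α * (E q x s b * E' q x y b))
        + qi q (c < b) (α + 2) * (E q x y b * E q x (s + 1) c)
        + q * qi q (b < c) α * (E q x s b * E q x (y + 1) c)
        + q ^ (α + 3) * qn q (s - α - 3) * el x s * (x c * E q x y b)
        + q ^ 2 * qn q (y + (α + 1) - 2) * el x y * (x c * E q x s b) := by
  have h1 : ∀ a, ee q b a * ee q c a * Sym q x (α + 1) s y a b =
      E q x y b * ((ee q b a * ee q c a * qi q (a < b) (α + 1)) * E q x s a)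
        + E q x s b * ((ee q b a * ee q c a * qi q (b < a) (α + 1)) * E q x y a) := by
    intro a
    unfold Sym TT TT'
    ring
  unfold N2
  simp only [h1]
  rw [sum_add_distrib, ← mul_sum, ← mul_sum, Lp_sum q x hq b c hbc (α + 1) s (by omega),
    Lm_sum q x hq b c hbc α y hy, E_succ q x s c, E_succ q x y c]
  have e : s - (α + 1) - 2 = s - α - 3 := by omega
  rw [e]
  ring

lemma R2_Sym (b : C) (α s y : ℕ) (hs : α + 2 ≤ s) :
    R2 q (Sym q x (α + 1) s y) b =
      qn q (α + 2) * (E q x y b * E' q x s b)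
          - q * qn q α * (E q x s b * E' q x y b)
        + q ^ (α + 2) * qn q (s - α - 2) * el x s * E q x y b
        + q * qn q (y + α) * el x y * E q x s b := by
  have h1 : ∀ a, ee q b a * Sym q x (α + 1) s y a b =
      E q x y b * ((ee q b a * qi q (a < b) (α + 1)) * E q x s a)
        + E q x s b * ((ee q b a * qi q (b < a) (α + 1)) * E q x y a) := by
    intro a
    unfold Sym TT TT'
    ring
  unfold R2
  simp only [h1]
  rw [sum_add_distrib, ← mul_sum, ← mul_sum, Op_sum q x hq b (α + 1) s (by omega),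
    Om_sum q x hq b α y (by omega)]
  have e : s - (α + 1) - 1 = s - α - 2 := by omega
  have e' : y + (α + 1) - 1 = y + α := by omega
  rw [e, e']
  ring

omit hq in
lemma N2_add (F G : C → C → A) (b c : C) :
    N2 q x (fun b c => F b c + G b c) b c = N2 q x F b c + N2 q x G b c := by
  unfold N2
  rw [← mul_add, ← sum_add_distrib]
  congr 1
  apply sum_congr rfl; intro a _; ring

omit hq in
lemma N2_mul (r : A) (F : C → C → A) (b c : C) :
    N2 q x (fun b c => r * F b c) b c = r * N2 q x F b c := by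
  unfold N2
  beta_reduce
  have : ∑ a, ee q b a * ee q c a * (r * F a b) = r * ∑ a, ee q b a * ee q c a * F a b := by
    rw [mul_sum]; apply sum_congr rfl; intro a _; ring
  rw [this]; ring

omit hq in
lemma R2_add (F G : C → C → A) (b : C) :
    R2 q (fun b c => F b c + G b c) b = R2 q F b + R2 q G b := by
  unfold R2
  rw [← sum_add_distrib]
  apply sum_congr rfl; intro a _; ring

omit hq in
lemma R2_mul (r : A) (F : C → C → A) (b : C) :
    R2 q (fun b c => r * F b c) b = r * R2 q F b := by
  unfold R2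
  rw [mul_sum]
  apply sum_congr rfl; intro a _; ring

/-- elementary-multiple terms produced by the step -/
def etN (m N j : ℕ) (b c : C) : A :=
  q ^ (m + 1 - 2 * j) * qn q (N + j - m - 2) * el x (N - j - 1) * (x c * E q x (j + 1) b)
    + q ^ 2 * qn q (m - j - 2) * el x (j + 1) * (x c * E q x (N - j - 1) b)

/-- elementary-multiple terms produced by the removal -/
def etR (m N j : ℕ) (b : C) : A :=
  q ^ (m - 2 * j) * qn q (N + j - m - 1) * el x (N - j - 1) * E q x (j + 1) b
    + q * qn q (m - j - 1) * el x (j + 1) * E q x (N - j - 1) b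

lemma N2_SS (b c : C) (hbc : b ≠ c) (m N i : ℕ) (hi : 2 * i ≤ m) (hN : m + 2 ≤ N) :
    N2 q x (SS q x m N i) b c =
      qi q (b < c) 1 * x c * (qn q m * Th q x N 0 b - q ^ i * qn q (m - 2 * i) * Th q x N i b)
        + ∑ j ∈ range i, q ^ j * (qi q (c < b) (m - 2 * j) * (E q x (j + 1) b * E q x (N - j) c))
        + ∑ j ∈ range i, q ^ (j + 1) * (qi q (b < c) (m - 2 * (j + 1))
            * (E q x (N - (j + 1)) b * E q x (j + 1 + 1) c))
        + ∑ j ∈ range i, q ^ j * etN q x m N j b c := by
  induction i with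
  | zero =>
    have : SS q x m N 0 = fun _ _ => (0 : A) := by
      funext b c; simp [SS]
    rw [this]
    simp [N2]
  | succ i ih =>
    have hS : SS q x m N (i + 1) = fun b c => SS q x m N i b c
        + q ^ i * Sym q x (m - 1 - 2 * i) (N - i - 1) (i + 1) b c := by
      funext b c
      simp only [SS, sum_range_succ]
    rw [hS, N2_add, N2_mul, ih (by omega)]
    obtain ⟨α, hα⟩ : ∃ α, m = 2 * i + 2 + α := ⟨m - (2 * i + 2), by omega⟩
    have e1 : m - 1 - 2 * i = α + 1 := by omega
    rw [e1, N2_Sym q x hq b c hbc α (N - i - 1) (i + 1) (by omega) (by omega)]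
    simp only [sum_range_succ]
    have e2 : m - 2 * i = α + 2 := by omega
    have e3 : m - 2 * (i + 1) = α := by omega
    have e4 : N - i - 1 + 1 = N - i := by omega
    have e5 : N - (i + 1) = N - i - 1 := by omega
    have e6 : N - i - 1 - α - 3 = N + i - m - 2 := by omega
    have e7 : i + 1 + (α + 1) - 2 = m - i - 2 := by omega
    have e8 : m + 1 - 2 * i = α + 3 := by omega
    have hTh : E q x (N - i - 1) b * E' q x (i + 1) b = Th q x N (i + 1) b :=
      Th_succ q x N i (by omega) b
    have hTh' : E q x (i + 1) b * E' q x (N - i - 1) b = Th q x N i b := rfl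
    rw [e2, e3, e4, e5, e6, e7, hTh, hTh']
    unfold etN
    rw [e8]
    ring

lemma R2_SS (b : C) (m N i : ℕ) (hi : 2 * i ≤ m) (hN : m + 2 ≤ N) :
    R2 q (SS q x m N i) b =
      qn q m * Th q x N 0 b - q ^ i * qn q (m - 2 * i) * Th q x N i b
        + ∑ j ∈ range i, q ^ j * etR q x m N j b := by
  induction i with
  | zero =>
    have : SS q x m N 0 = fun _ _ => (0 : A) := by
      funext b c; simp [SS]
    rw [this]
    simp [R2]
  | succ i ih =>
    have hS : SS q x m N (i + 1) = fun b c => SS q x m N i b c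
        + q ^ i * Sym q x (m - 1 - 2 * i) (N - i - 1) (i + 1) b c := by
      funext b c
      simp only [SS, sum_range_succ]
    rw [hS, R2_add, R2_mul, ih (by omega)]
    obtain ⟨α, hα⟩ : ∃ α, m = 2 * i + 2 + α := ⟨m - (2 * i + 2), by omega⟩
    have e1 : m - 1 - 2 * i = α + 1 := by omega
    rw [e1, R2_Sym q x hq b α (N - i - 1) (i + 1) (by omega)]
    simp only [sum_range_succ]
    have e2 : m - 2 * i = α + 2 := by omega
    have e3 : m - 2 * (i + 1) = α := by omega
    have e6 : N - i - 1 - α - 2 = N + i - m - 1 := by omega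
    have e7 : i + 1 + α = m - i - 1 := by omega
    have hTh : E q x (N - i - 1) b * E' q x (i + 1) b = Th q x N (i + 1) b :=
      Th_succ q x N i (by omega) b
    have hTh' : E q x (i + 1) b * E' q x (N - i - 1) b = Th q x N i b := rfl
    rw [e2, e3, e6, e7, hTh, hTh']
    unfold etR
    rw [e2]
    ring

omit hq in
lemma SS_expand (m N i : ℕ) (b c : C) :
    SS q x (m + 1) (N + 1) i b c =
      ∑ j ∈ range i, q ^ j * (qi q (b < c) (m - 2 * j) * (E q x (N - j) b * E q x (j + 1) c))
        + ∑ j ∈ range i, q ^ j * (qi q (c < b) (m - 2 * j) * (E q x (j + 1) b * E q x (N - j) c)) := by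
  unfold SS
  rw [← sum_add_distrib]
  apply sum_congr rfl
  intro j _
  have e1 : m + 1 - 1 - 2 * j = m - 2 * j := by omega
  have e2 : N + 1 - j - 1 = N - j := by omega
  rw [e1, e2]
  unfold Sym TT TT'
  ring

lemma N2_PsiE (b c : C) (hbc : b ≠ c) (N i : ℕ) (hi : 1 ≤ i) (hN : 2 * i + 2 ≤ N) :
    N2 q x (PsiE q x N i) b c =
      PsiO q x (N + 1) i b c + q * qn q (2 * i - 1) * (x c * E q x N b)
        + ∑ j ∈ range i, q ^ j * etN q x (2 * i) N j b c := by
  have hfun : PsiE q x N i = SS q x (2 * i) N i := rfl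
  rw [hfun, N2_SS q x hq b c hbc (2 * i) N i le_rfl hN]
  unfold PsiO
  rw [SS_expand]
  have e0 : N + 1 - i - 1 = N - i := by omega
  rw [e0]
  set F : ℕ → A := fun j =>
    q ^ j * (qi q (b < c) (2 * i - 2 * j) * (E q x (N - j) b * E q x (j + 1) c)) with hF
  have hsum : ∑ j ∈ range i, F j + F i = ∑ j ∈ range i, F (j + 1) + F 0 := by
    rw [← sum_range_succ, sum_range_succ']
  have hFi : F i = q ^ i * TT q x 0 (N - i) (i + 1) b c := by
    simp only [hF, TT, Nat.sub_self]
    ring
  have hF0 : F 0 = qi q (b < c) (2 * i) * E q x N b * x c := by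
    simp only [hF, mul_zero, Nat.sub_zero, zero_add, pow_zero, E_one]
    ring
  rw [hFi, hF0] at hsum
  have hτ := qi_one_mul_qn q (b < c) (2 * i) (by omega)
  have hth := Th_zero q x N (by omega) b
  have h0 : 2 * i - 2 * i = 0 := by omega
  rw [h0, qn_zero, hth]
  simp only [hF] at hsum
  linear_combination (x c * E q x N b) * hτ - hsum

lemma N2_PsiO (b c : C) (hbc : b ≠ c) (N i : ℕ) (hN : 2 * i + 3 ≤ N) :
    N2 q x (PsiO q x N i) b c =
      PsiE q x (N + 1) (i + 1) b c + q * qn q (2 * i) * (x c * E q x N b)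
        + q ^ (i + 2) * qn q (N - i - 3) * el x (N - i - 1) * (x c * E q x (i + 1) b)
        + ∑ j ∈ range i, q ^ j * etN q x (2 * i + 1) N j b c := by
  have hfun : PsiO q x N i = fun b c => q ^ i * TT q x 0 (N - i - 1) (i + 1) b c
      + SS q x (2 * i + 1) N i b c := rfl
  rw [hfun, N2_add, N2_mul, N2_SS q x hq b c hbc (2 * i + 1) N i (by omega) (by omega)]
  have hTT : N2 q x (TT q x 0 (N - i - 1) (i + 1)) b c =
      qi q (b < c) 1 * x c * Th q x N i b
        + qi q (c < b) 1 * (E q x (i + 1) b * E q x (N - i) c)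
        + q ^ 2 * qn q (N - i - 3) * el x (N - i - 1) * (x c * E q x (i + 1) b) := by
    have h1 : ∀ a, ee q b a * ee q c a * TT q x 0 (N - i - 1) (i + 1) a b =
        E q x (i + 1) b * ((ee q b a * ee q c a * qi q (a < b) 0) * E q x (N - i - 1) a) := by
      intro a
      unfold TT
      ring
    unfold N2
    simp only [h1]
    rw [← mul_sum, Lp_sum q x hq b c hbc 0 (N - i - 1) (by omega)]
    have e1 : N - i = (N - i - 1) + 1 := by omega
    have e2 : N - i - 1 - 0 - 2 = N - i - 3 := by omega
    have e3 : Th q x N i b = E q x (i + 1) b * E' q x (N - i - 1) b := rfl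
    rw [e3, e2, e1, E_succ q x (N - i - 1) c]
    have e4 : N - i - 1 + 1 - 1 = N - i - 1 := by omega
    rw [e4, qn_one, qn_zero]
    simp only [zero_add, pow_one]
    ring
  rw [hTT]
  unfold PsiE
  rw [show 2 * (i + 1) = (2 * i + 1) + 1 by ring, SS_expand]
  set F : ℕ → A := fun j =>
    q ^ j * (qi q (b < c) (2 * i + 1 - 2 * j) * (E q x (N - j) b * E q x (j + 1) c)) with hF
  have hsum : ∑ j ∈ range (i + 1), F j = ∑ j ∈ range i, F (j + 1) + F 0 := by
    rw [sum_range_succ']
  have hF0 : F 0 = qi q (b < c) (2 * i + 1) * E q x N b * x c := by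
    simp only [hF, mul_zero, Nat.sub_zero, zero_add, pow_zero, E_one]
    ring
  rw [hF0] at hsum
  have hτ := qi_one_mul_qn q (b < c) (2 * i + 1) (by omega)
  have hth := Th_zero q x N (by omega) b
  have h0 : 2 * i + 1 - 2 * i = 1 := by omega
  have hG : ∑ j ∈ range (i + 1),
      q ^ j * (qi q (c < b) (2 * i + 1 - 2 * j) * (E q x (j + 1) b * E q x (N - j) c)) =
      ∑ j ∈ range i,
      q ^ j * (qi q (c < b) (2 * i + 1 - 2 * j) * (E q x (j + 1) b * E q x (N - j) c))
        + q ^ i * (qi q (c < b) 1 * (E q x (i + 1) b * E q x (N - i) c)) := by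
    rw [sum_range_succ, h0]
  rw [hG, h0, qn_one, hth]
  simp only [hF] at hsum
  have e5 : 2 * i + 1 - 1 = 2 * i := by omega
  rw [e5] at hτ
  rw [hsum]
  simp only [pow_succ]
  linear_combination (x c * E q x N b) * hτ

lemma R2_PsiE (b : C) (N i : ℕ) (hN : 2 * i + 2 ≤ N) :
    R2 q (PsiE q x N i) b =
      qn q (2 * i) * E q x N b + ∑ j ∈ range i, q ^ j * etR q x (2 * i) N j b := by
  have hfun : PsiE q x N i = SS q x (2 * i) N i := rfl
  rw [hfun, R2_SS q x hq b (2 * i) N i le_rfl hN]
  have hth := Th_zero q x N (by omega) b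
  have h0 : 2 * i - 2 * i = 0 := by omega
  rw [h0, qn_zero, hth]
  ring

lemma R2_PsiO (b : C) (N i : ℕ) (hN : 2 * i + 3 ≤ N) :
    R2 q (PsiO q x N i) b =
      qn q (2 * i + 1) * E q x N b
        + q ^ (i + 1) * qn q (N - i - 2) * el x (N - i - 1) * E q x (i + 1) b
        + ∑ j ∈ range i, q ^ j * etR q x (2 * i + 1) N j b := by
  have hfun : PsiO q x N i = fun b c => q ^ i * TT q x 0 (N - i - 1) (i + 1) b c
      + SS q x (2 * i + 1) N i b c := rfl
  rw [hfun, R2_add, R2_mul, R2_SS q x hq b (2 * i + 1) N i (by omega) (by omega)]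
  have hTT : R2 q (TT q x 0 (N - i - 1) (i + 1)) b =
      Th q x N i b + q * qn q (N - i - 2) * el x (N - i - 1) * E q x (i + 1) b := by
    have h1 : ∀ a, ee q b a * TT q x 0 (N - i - 1) (i + 1) a b =
        E q x (i + 1) b * ((ee q b a * qi q (a < b) 0) * E q x (N - i - 1) a) := by
      intro a
      unfold TT
      ring
    unfold R2
    simp only [h1]
    rw [← mul_sum, Op_sum q x hq b 0 (N - i - 1) (by omega)]
    have e2 : N - i - 1 - 0 - 1 = N - i - 2 := by omega
    have e3 : Th q x N i b = E q x (i + 1) b * E' q x (N - i - 1) b := rfl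
    rw [e3, e2, qn_one, qn_zero]
    simp only [zero_add, pow_one]
    ring
  rw [hTT]
  have hth := Th_zero q x N (by omega) b
  have h0 : 2 * i + 1 - 2 * i = 1 := by omega
  rw [h0, qn_one, hth]
  ring

end Generic

end Vale.Agent.P066
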