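import Mathlib

set_option linter.unusedSectionVars false
set_option linter.unusedVariables false
set_option linter.unusedSimpArgs false

namespace Vale.Agent.P066

open Finset

section Generic

variable {C : Type*} [LinearOrder C] [Fintype C] {A : Type*} [CommRing A] (q : A) (x : C → A)

/-- q-number -/
def qn (n : ℕ) : A := ∑ i ∈ range n, q ^ i

lemma qn_zero : qn q 0 = 0 := by simp [qn]

lemma qn_one : qn q 1 = 1 := by simp [qn]

lemma qn_succ (n : ℕ) : qn q (n + 1) = qn q n + q ^ n := by simp [qn, sum_range_succ]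

lemma one_sub_mul_qn (n : ℕ) : (1 - q) * qn q n = 1 - q ^ n := by
  induction n with
  | zero => simp [qn]
  | succ n ih => rw [qn_succ, mul_add, ih]; ring

/-- number of elements of `U` below `c` -/
def pos (U : Finset C) (c : C) : ℕ := (U.filter (· < c)).card

/-- monomial -/
def xs (U : Finset C) : A := ∏ u ∈ U, x u

/-- elementary symmetric function -/
def el (k : ℕ) : A := ∑ U ∈ powersetCard k (univ : Finset C), xs x U

/-- position coefficient when `c ∈ U` -/
def cE (U : Finset C) (c : C) : A := if c ∈ U then q ^ pos U c else 0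

/-- position coefficient when `c ∉ U` -/
def cE' (U : Finset C) (c : C) : A := if c ∈ U then 0 else q ^ pos U c

lemma cE'_eq (U : Finset C) (c : C) : cE' q U c = q ^ pos U c - cE q U c := by
  unfold cE cE'; split_ifs <;> simp

def E (k : ℕ) (c : C) : A := ∑ U ∈ powersetCard k (univ : Finset C), cE q U c * xs x U

def E' (k : ℕ) (c : C) : A := ∑ U ∈ powersetCard k (univ : Finset C), cE' q U c * xs x U

/-- edge weight -/
def ee (u v : C) : A := if v = u then 0 else if v < u then q else 1

/-- conditional power -/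
def qi (p : Prop) [Decidable p] (k : ℕ) : A := if p then q ^ k else 1

lemma pos_insert_of_le {U : Finset C} {m a : C} (h : a ≤ m) : pos (insert m U) a = pos U a := by
  unfold pos
  rw [filter_insert, if_neg (not_lt.mpr h)]

lemma pos_insert_self (U : Finset C) (c : C) : pos (insert c U) c = pos U c :=
  pos_insert_of_le le_rfl

lemma pos_of_forall_lt {U : Finset C} {m : C} (h : ∀ x ∈ U, x < m) : pos U m = U.card := by
  unfold pos
  rw [filter_true_of_mem h]

lemma sum_filter_lower (U : Finset C) (P : C → Prop) [DecidablePred P]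
    (hP : ∀ a b, a ≤ b → P b → P a) :
    ∑ a ∈ U.filter P, q ^ pos U a = qn q (U.filter P).card := by
  induction U using Finset.induction_on_max with
  | empty => simp [qn]
  | insert m U hm ih =>
    have hmU : m ∉ U := fun h => lt_irrefl _ (hm m h)
    by_cases hPm : P m
    · rw [filter_insert, if_pos hPm]
      have hfm : m ∉ U.filter P := fun h => hmU (mem_filter.mp h).1
      rw [sum_insert hfm, card_insert_of_notMem hfm, qn_succ, ← ih]
      have hall : U.filter P = U := filter_true_of_mem fun a ha => hP a m (hm a ha).le hPm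
      rw [hall, pos_insert_self, pos_of_forall_lt hm, add_comm]
      congr 1
      apply sum_congr rfl
      intro a ha
      rw [pos_insert_of_le (hm a ha).le]
    · rw [filter_insert, if_neg hPm, ← ih]
      apply sum_congr rfl
      intro a ha
      have hPa : P a := (mem_filter.mp ha).2
      have : a ≤ m := by
        by_contra hlt
        exact hPm (hP m a (not_le.mp hlt).le hPa)
      rw [pos_insert_of_le this]

lemma S_lt (U : Finset C) (t : C) :
    ∑ a ∈ U, (if a < t then q ^ pos U a else 0) = qn q (pos U t) := by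
  rw [← sum_filter]
  exact sum_filter_lower q U (· < t) (fun a b hab hb => lt_of_le_of_lt hab hb)

lemma card_filter_le (U : Finset C) (t : C) :
    (U.filter (· ≤ t)).card = pos U t + (if t ∈ U then 1 else 0) := by
  have : U.filter (· ≤ t) = U.filter (· < t) ∪ U.filter (· = t) := by
    ext a
    simp only [mem_filter, mem_union]
    constructor
    · rintro ⟨h1, h2⟩
      rcases lt_or_eq_of_le h2 with h | h
      · exact Or.inl ⟨h1, h⟩
      · exact Or.inr ⟨h1, h⟩
    · rintro (⟨h1, h2⟩ | ⟨h1, h2⟩)
      · exact ⟨h1, h2.le⟩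
      · exact ⟨h1, h2.le⟩
  rw [this, card_union_of_disjoint]
  · unfold pos
    congr 1
    rw [filter_eq']
    split_ifs <;> simp
  · rw [disjoint_filter]
    intro a _ h1 h2
    exact (ne_of_lt h1) h2

lemma S_le (U : Finset C) (t : C) :
    ∑ a ∈ U, (if a ≤ t then q ^ pos U a else 0) = qn q (pos U t) + cE q U t := by
  rw [← sum_filter, sum_filter_lower q U (· ≤ t) (fun a b hab hb => le_trans hab hb),
    card_filter_le]
  unfold cE
  split_ifs with h
  · rw [qn_succ]
  · simp

lemma S_all (U : Finset C) : ∑ a ∈ U, q ^ pos U a = qn q U.card := by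
  have := sum_filter_lower q U (fun _ => True) (fun _ _ _ _ => trivial)
  simpa using this

/-- sum over `U` of a weight constant on the two regions cut by a mark `s` -/
lemma region1 (U : Finset C) (W : C → A) (s : C) (w₁ w₂ : A)
    (h1 : ∀ a, a < s → W a = w₁) (h2 : W s = 0) (h3 : ∀ a, s < a → W a = w₂) :
    ∑ a ∈ U, W a * q ^ pos U a =
      w₁ * qn q (pos U s) + w₂ * (qn q U.card - (qn q (pos U s) + cE q U s)) := by
  rw [← S_le q U s, ← S_lt q U s, ← S_all q U, mul_sum, ← sum_sub_distrib, mul_sum,
    ← sum_add_distrib]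
  apply sum_congr rfl
  intro a _
  rcases lt_trichotomy a s with h | h | h
  · simp [h1 a h, h, h.le]
  · subst h; simp [h2]
  · simp [h3 a h, not_lt.mpr h.le, not_le.mpr h]

/-- sum over `U` of a weight constant on the three regions cut by marks `s < t` -/
lemma region2 (U : Finset C) (W : C → A) (s t : C) (hst : s < t) (w₁ w₂ w₃ : A)
    (h1 : ∀ a, a < s → W a = w₁) (h2 : W s = 0) (h3 : ∀ a, s < a → a < t → W a = w₂)
    (h4 : W t = 0) (h5 : ∀ a, t < a → W a = w₃) :
    ∑ a ∈ U, W a * q ^ pos U a =
      w₁ * qn q (pos U s) + w₂ * (qn q (pos U t) - (qn q (pos U s) + cE q U s))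
        + w₃ * (qn q U.card - (qn q (pos U t) + cE q U t)) := by
  rw [← S_le q U s, ← S_le q U t, ← S_lt q U s, ← S_lt q U t, ← S_all q U]
  simp only [mul_sum, ← sum_sub_distrib, ← sum_add_distrib]
  apply sum_congr rfl
  intro a _
  rcases lt_trichotomy a s with h | h | h
  · have h' := h.trans hst
    simp [h1 a h, h, h.le, h', h'.le]
  · subst h
    simp [h2, hst, hst.le]
  · rcases lt_trichotomy a t with h' | h' | h'
    · simp [h3 a h h', h', h'.le, not_lt.mpr h.le, not_le.mpr h]
    · subst h'
      simp [h4, not_lt.mpr h.le, not_le.mpr h]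
    · simp [h5 a h', not_lt.mpr h'.le, not_le.mpr h', not_lt.mpr h.le, not_le.mpr h]

section PerU

variable [IsDomain A] (hq : q ≠ 1)
include hq

lemma h1q : (1 : A) - q ≠ 0 := sub_ne_zero.mpr (Ne.symm hq)

/-- per-subset form of the first two-mark sum -/
lemma perU_Lp (U : Finset C) (b c : C) (hbc : b ≠ c) (α : ℕ) (hU : α + 2 ≤ U.card) :
    ∑ a ∈ U, (ee q b a * ee q c a * qi q (a < b) α) * q ^ pos U a =
      qn q (α + 1) * qi q (b < c) 1 * cE' q U b + q * qn q α * qi q (b < c) 1 * cE q U b
        + qi q (c < b) (α + 1) * cE' q U c + q ^ (α + 2) * qn q (U.card - α - 2) := by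
  obtain ⟨t, ht⟩ : ∃ t, U.card = α + 2 + t := ⟨U.card - (α + 2), by omega⟩
  have hsub : U.card - α - 2 = t := by omega
  have key := one_sub_mul_qn q
  rw [hsub, cE'_eq, cE'_eq]
  rcases lt_or_gt_of_ne hbc with h | h
  · rw [region2 q U _ b c h (q ^ (α + 2)) q 1]
    · simp only [qi, h, if_true, not_lt.mpr h.le, if_false]
      apply mul_left_cancel₀ (h1q q hq)
      rw [ht]
      have e1 := key (pos U b); have e2 := key (pos U c); have e3 := key (α + 2 + t)
      have e4 := key (α + 1); have e5 := key α; have e6 := key t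
      linear_combination
        (q ^ (α + 2) - q) * e1 + (q - 1) * e2 + e3
          - (q ^ (pos U b) * q - cE q U b * q) * e4
          - (q * cE q U b * q) * e5 - q ^ (α + 2) * e6
    · intro a ha
      have h2 := ha.trans h
      simp [ee, ha, ha.ne, h2, h2.ne, qi]; ring
    · simp [ee]
    · intro a ha ha'
      simp [ee, ha.ne', ha', ha'.ne, not_lt.mpr ha.le, qi]
    · simp [ee]
    · intro a ha
      have h2 := h.trans ha
      simp [ee, ha.ne', h2.ne', not_lt.mpr ha.le, not_lt.mpr h2.le, qi]
  · rw [region2 q U _ c b h (q ^ (α + 2)) (q ^ (α + 1)) 1]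
    · simp only [qi, h, if_true, not_lt.mpr h.le, if_false]
      apply mul_left_cancel₀ (h1q q hq)
      rw [ht]
      have e1 := key (pos U b); have e2 := key (pos U c); have e3 := key (α + 2 + t)
      have e4 := key (α + 1); have e5 := key α; have e6 := key t
      linear_combination
        (q ^ (α + 1) - 1) * e1 + (q ^ (α + 2) - q ^ (α + 1)) * e2 + e3
          - (q ^ (pos U b) - cE q U b) * e4
          - (q * cE q U b) * e5 - q ^ (α + 2) * e6
    · intro a ha
      have h2 := ha.trans h
      simp [ee, ha, ha.ne, h2, h2.ne, qi]; ring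
    · simp [ee]
    · intro a ha ha'
      simp [ee, ha.ne', ha', ha'.ne, not_lt.mpr ha.le, qi]; ring
    · simp [ee]
    · intro a ha
      have h2 := h.trans ha
      simp [ee, ha.ne', h2.ne', not_lt.mpr ha.le, not_lt.mpr h2.le, qi]

/-- per-subset form of the second two-mark sum -/
lemma perU_Lm (U : Finset C) (b c : C) (hbc : b ≠ c) (α : ℕ) (hU : 2 ≤ U.card + (α + 1)) :
    ∑ a ∈ U, (ee q b a * ee q c a * qi q (b < a) (α + 1)) * q ^ pos U a =
      - (q * qn q α * qi q (b < c) 1 * cE' q U b) - q * qn q (α + 1) * qi q (b < c) 1 * cE q U b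
        + q * qi q (b < c) α * cE' q U c + q ^ 2 * qn q (U.card + (α + 1) - 2) := by
  obtain ⟨t, ht⟩ : ∃ t, U.card + (α + 1) = 2 + t := ⟨U.card + (α + 1) - 2, by omega⟩
  have hsub : U.card + (α + 1) - 2 = t := by omega
  have key := one_sub_mul_qn q
  rw [hsub, cE'_eq, cE'_eq]
  have hqn : q ^ (2 + t) = q ^ U.card * q ^ (α + 1) := by rw [← ht]; ring
  rcases lt_or_gt_of_ne hbc with h | h
  · rw [region2 q U _ b c h (q ^ 2) (q ^ (α + 2)) (q ^ (α + 1))]
    · simp only [qi, h, if_true, not_lt.mpr h.le, if_false]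
      apply mul_left_cancel₀ (h1q q hq)
      have e1 := key (pos U b); have e2 := key (pos U c); have e3 := key U.card
      have e4 := key (α + 1); have e5 := key α; have e6 := key t
      linear_combination
        (q ^ 2 - q ^ (α + 2)) * e1 + (q ^ (α + 2) - q ^ (α + 1)) * e2 + q ^ (α + 1) * e3
          + (q * (q ^ pos U b - cE q U b) * q) * e5
          + (q * cE q U b * q) * e4 - q ^ 2 * e6 + hqn
    · intro a ha
      have h2 := ha.trans h
      simp [ee, ha, ha.ne, h2, h2.ne, qi, not_lt.mpr ha.le]; ring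
    · simp [ee]
    · intro a ha ha'
      simp [ee, ha.ne', ha', ha'.ne, not_lt.mpr ha.le, qi, ha]; ring
    · simp [ee]
    · intro a ha
      have h2 := h.trans ha
      simp [ee, ha.ne', h2.ne', not_lt.mpr ha.le, not_lt.mpr h2.le, qi, h2]
  · rw [region2 q U _ c b h (q ^ 2) q (q ^ (α + 1))]
    · simp only [qi, h, if_true, not_lt.mpr h.le, if_false]
      apply mul_left_cancel₀ (h1q q hq)
      have e1 := key (pos U b); have e2 := key (pos U c); have e3 := key U.card
      have e4 := key (α + 1); have e5 := key α; have e6 := key t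
      linear_combination
        (q - q ^ (α + 1)) * e1 + (q ^ 2 - q) * e2 + q ^ (α + 1) * e3
          + (q * (q ^ pos U b - cE q U b)) * e5
          + (q * cE q U b) * e4 - q ^ 2 * e6 + hqn
    · intro a ha
      have h2 := ha.trans h
      simp [ee, ha, ha.ne, h2, h2.ne, qi, not_lt.mpr h2.le]; ring
    · simp [ee]
    · intro a ha ha'
      simp [ee, ha.ne', ha', ha'.ne, not_lt.mpr ha.le, qi, not_lt.mpr ha'.le]
    · simp [ee]
    · intro a ha
      have h2 := h.trans ha
      simp [ee, ha.ne', h2.ne', not_lt.mpr ha.le, not_lt.mpr h2.le, qi, ha]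

/-- per-subset form of the first one-mark sum -/
lemma perU_Op (U : Finset C) (b : C) (α : ℕ) (hU : α + 1 ≤ U.card) :
    ∑ a ∈ U, (ee q b a * qi q (a < b) α) * q ^ pos U a =
      qn q (α + 1) * cE' q U b + q * qn q α * cE q U b
        + q ^ (α + 1) * qn q (U.card - α - 1) := by
  obtain ⟨t, ht⟩ : ∃ t, U.card = α + 1 + t := ⟨U.card - (α + 1), by omega⟩
  have hsub : U.card - α - 1 = t := by omega
  have key := one_sub_mul_qn q
  rw [hsub, cE'_eq]
  rw [region1 q U _ b (q ^ (α + 1)) 1]
  · apply mul_left_cancel₀ (h1q q hq)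
    rw [ht]
    have e1 := key (pos U b); have e3 := key (α + 1 + t)
    have e4 := key (α + 1); have e5 := key α; have e6 := key t
    linear_combination
      (q ^ (α + 1) - 1) * e1 + e3
        - (q ^ (pos U b) - cE q U b) * e4
        - (q * cE q U b) * e5 - q ^ (α + 1) * e6
  · intro a ha
    simp [ee, ha, ha.ne, qi]; ring
  · simp [ee]
  · intro a ha
    simp [ee, ha.ne', not_lt.mpr ha.le, qi]

/-- per-subset form of the second one-mark sum -/
lemma perU_Om (U : Finset C) (b : C) (α : ℕ) (hU : 1 ≤ U.card + (α + 1)) :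
    ∑ a ∈ U, (ee q b a * qi q (b < a) (α + 1)) * q ^ pos U a =
      - (q * qn q α * cE' q U b) - q * qn q (α + 1) * cE q U b
        + q * qn q (U.card + (α + 1) - 1) := by
  have hsub : U.card + (α + 1) - 1 = U.card + α := by omega
  have key := one_sub_mul_qn q
  rw [hsub, cE'_eq]
  rw [region1 q U _ b q (q ^ (α + 1))]
  · apply mul_left_cancel₀ (h1q q hq)
    have e1 := key (pos U b); have e3 := key U.card
    have e4 := key (α + 1); have e5 := key α; have e6 := key (U.card + α)
    linear_combination
      (q - q ^ (α + 1)) * e1 + q ^ (α + 1) * e3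
        + (q * (q ^ pos U b - cE q U b)) * e5
        + (q * cE q U b) * e4 - q * e6
  · intro a ha
    simp [ee, ha, ha.ne, qi, not_lt.mpr ha.le]
  · simp [ee]
  · intro a ha
    simp [ee, ha.ne', not_lt.mpr ha.le, qi, ha]

lemma perU_O0 (U : Finset C) (c : C) (hU : 1 ≤ U.card) :
    ∑ a ∈ U, ee q c a * q ^ pos U a = cE' q U c + q * qn q (U.card - 1) := by
  have := perU_Op q hq U c 0 (by omega)
  simpa [qi, qn_one, qn_zero] using this

end PerU

lemma sum_W_E (W : C → A) (s : ℕ) :
    ∑ a, W a * E q x s a =
      ∑ U ∈ powersetCard s (univ : Finset C), (∑ a ∈ U, W a * q ^ pos U a) * xs x U := by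
  unfold E
  simp only [mul_sum]
  rw [sum_comm]
  apply sum_congr rfl
  intro U _
  rw [sum_mul, ← sum_subset (subset_univ U)]
  · apply sum_congr rfl
    intro a ha
    simp [cE, ha, mul_assoc]
  · intro a _ ha
    simp [cE, ha]

section ESums

variable [IsDomain A] (hq : q ≠ 1)
include hq

lemma Lp_sum (b c : C) (hbc : b ≠ c) (α s : ℕ) (hs : α + 2 ≤ s) :
    ∑ a, (ee q b a * ee q c a * qi q (a < b) α) * E q x s a =
      qn q (α + 1) * qi q (b < c) 1 * E' q x s b + q * qn q α * qi q (b < c) 1 * E q x s b
        + qi q (c < b) (α + 1) * E' q x s c + q ^ (α + 2) * qn q (s - α - 2) * el x s := by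
  rw [sum_W_E]
  have : ∀ U ∈ powersetCard s (univ : Finset C),
      (∑ a ∈ U, (ee q b a * ee q c a * qi q (a < b) α) * q ^ pos U a) * xs x U =
      qn q (α + 1) * qi q (b < c) 1 * (cE' q U b * xs x U)
        + q * qn q α * qi q (b < c) 1 * (cE q U b * xs x U)
        + qi q (c < b) (α + 1) * (cE' q U c * xs x U)
        + q ^ (α + 2) * qn q (s - α - 2) * xs x U := by
    intro U hU
    have hc : U.card = s := (mem_powersetCard.mp hU).2
    rw [perU_Lp q hq U b c hbc α (by omega), hc]
    ring
  rw [sum_congr rfl this]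
  simp only [E, E', el, sum_add_distrib, mul_sum]

lemma Lm_sum (b c : C) (hbc : b ≠ c) (α s : ℕ) (hs : 2 ≤ s + (α + 1)) :
    ∑ a, (ee q b a * ee q c a * qi q (b < a) (α + 1)) * E q x s a =
      - (q * qn q α * qi q (b < c) 1 * E' q x s b) - q * qn q (α + 1) * qi q (b < c) 1 * E q x s b
        + q * qi q (b < c) α * E' q x s c + q ^ 2 * qn q (s + (α + 1) - 2) * el x s := by
  rw [sum_W_E]
  have : ∀ U ∈ powersetCard s (univ : Finset C),
      (∑ a ∈ U, (ee q b a * ee q c a * qi q (b < a) (α + 1)) * q ^ pos U a) * xs x U =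
      - (q * qn q α * qi q (b < c) 1 * (cE' q U b * xs x U))
        - q * qn q (α + 1) * qi q (b < c) 1 * (cE q U b * xs x U)
        + q * qi q (b < c) α * (cE' q U c * xs x U)
        + q ^ 2 * qn q (s + (α + 1) - 2) * xs x U := by
    intro U hU
    have hc : U.card = s := (mem_powersetCard.mp hU).2
    rw [perU_Lm q hq U b c hbc α (by omega), hc]
    ring
  rw [sum_congr rfl this]
  simp only [E, E', el, sum_add_distrib, sum_sub_distrib, sum_neg_distrib, mul_sum]

lemma Op_sum (b : C) (α s : ℕ) (hs : α + 1 ≤ s) :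
    ∑ a, (ee q b a * qi q (a < b) α) * E q x s a =
      qn q (α + 1) * E' q x s b + q * qn q α * E q x s b
        + q ^ (α + 1) * qn q (s - α - 1) * el x s := by
  rw [sum_W_E]
  have : ∀ U ∈ powersetCard s (univ : Finset C),
      (∑ a ∈ U, (ee q b a * qi q (a < b) α) * q ^ pos U a) * xs x U =
      qn q (α + 1) * (cE' q U b * xs x U)
        + q * qn q α * (cE q U b * xs x U)
        + q ^ (α + 1) * qn q (s - α - 1) * xs x U := by
    intro U hU
    have hc : U.card = s := (mem_powersetCard.mp hU).2
    rw [perU_Op q hq U b α (by omega), hc]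
    ring
  rw [sum_congr rfl this]
  simp only [E, E', el, sum_add_distrib, mul_sum]

lemma Om_sum (b : C) (α s : ℕ) (hs : 1 ≤ s + (α + 1)) :
    ∑ a, (ee q b a * qi q (b < a) (α + 1)) * E q x s a =
      - (q * qn q α * E' q x s b) - q * qn q (α + 1) * E q x s b
        + q * qn q (s + (α + 1) - 1) * el x s := by
  rw [sum_W_E]
  have : ∀ U ∈ powersetCard s (univ : Finset C),
      (∑ a ∈ U, (ee q b a * qi q (b < a) (α + 1)) * q ^ pos U a) * xs x U =
      - (q * qn q α * (cE' q U b * xs x U))
        - q * qn q (α + 1) * (cE q U b * xs x U)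
        + q * qn q (s + (α + 1) - 1) * xs x U := by
    intro U hU
    have hc : U.card = s := (mem_powersetCard.mp hU).2
    rw [perU_Om q hq U b α (by omega), hc]
    ring
  rw [sum_congr rfl this]
  simp only [E, E', el, sum_add_distrib, sum_sub_distrib, sum_neg_distrib, mul_sum]

end ESums

/-- adding a fixed element gives a bijection between subsets avoiding it and subsets
containing it -/
lemma sum_insert_bij (c : C) (k : ℕ) (g : Finset C → A) :
    ∑ U ∈ powersetCard (k + 1) (univ : Finset C), (if c ∈ U then g U else 0) =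
      ∑ U ∈ powersetCard k (univ : Finset C), (if c ∈ U then 0 else g (insert c U)) := by
  rw [← sum_filter]
  have h2 : ∀ U : Finset C, (if c ∈ U then (0 : A) else g (insert c U)) =
      if c ∉ U then g (insert c U) else 0 := by
    intro U; split_ifs <;> rfl
  simp only [h2]
  rw [← sum_filter]
  refine sum_bij' (fun U _ => U.erase c) (fun U _ => insert c U) ?_ ?_ ?_ ?_ ?_
  · intro U hU
    simp only [mem_filter, mem_powersetCard, subset_univ, true_and] at hU ⊢
    refine ⟨?_, notMem_erase c U⟩
    rw [card_erase_of_mem hU.2, hU.1]; rfl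
  · intro U hU
    simp only [mem_filter, mem_powersetCard, subset_univ, true_and] at hU ⊢
    refine ⟨?_, mem_insert_self c U⟩
    rw [card_insert_of_notMem hU.2, hU.1]
  · intro U hU
    simp only [mem_filter, mem_powersetCard, subset_univ, true_and] at hU
    exact insert_erase hU.2
  · intro U hU
    simp only [mem_filter, mem_powersetCard, subset_univ, true_and] at hU
    exact erase_insert hU.2
  · intro U hU
    simp only [mem_filter, mem_powersetCard, subset_univ, true_and] at hU
    rw [insert_erase hU.2]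

lemma xs_insert {U : Finset C} {c : C} (h : c ∉ U) : xs x (insert c U) = x c * xs x U := by
  unfold xs; rw [prod_insert h]

lemma E_succ (k : ℕ) (c : C) : E q x (k + 1) c = x c * E' q x k c := by
  unfold E E'
  have h1 : ∀ U : Finset C, cE q U c * xs x U =
      if c ∈ U then q ^ pos U c * xs x U else 0 := by
    intro U; unfold cE; split_ifs <;> simp
  simp only [h1]
  rw [sum_insert_bij, mul_sum]
  apply sum_congr rfl
  intro U _
  unfold cE'
  split_ifs with h
  · simp
  · rw [pos_insert_self, xs_insert x h]; ring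

lemma E'_zero (c : C) : E' q x 0 c = 1 := by
  simp [E', cE', pos, xs]

lemma E_one (c : C) : E q x 1 c = x c := by
  rw [E_succ, E'_zero, mul_one]

lemma el_zero : el (C := C) x 0 = 1 := by
  simp [el, xs]

end Generic

end Vale.Agent.P066
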