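import Vale.Agent.P066.Atoms

set_option linter.unusedSectionVars false
set_option linter.unusedVariables false
set_option linter.unusedSimpArgs false

namespace Vale.Agent.P066

open Finset

/-- colours, with the reversed order -/
abbrev CC (M : ℕ) : Type := (Fin M)ᵒᵈ

/-- coefficient ring in `M` colours -/
abbrev AA (M : ℕ) : Type := MvPolynomial (Fin M) (Polynomial ℤ)

noncomputable def qq (M : ℕ) : AA M := MvPolynomial.C Polynomial.X

noncomputable def xx (M : ℕ) (u : CC M) : AA M := MvPolynomial.X (OrderDual.ofDual u)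

lemma qq_ne_one (M : ℕ) : qq M ≠ 1 := by
  intro h
  have h1 : MvPolynomial.C (σ := Fin M) (Polynomial.X : Polynomial ℤ) = MvPolynomial.C 1 := by
    simpa [qq] using h
  have h2 : (Polynomial.X : Polynomial ℤ) = 1 := MvPolynomial.C_injective _ _ h1
  have h3 := congrArg (Polynomial.eval 0) h2
  simp at h3

inductive Cone0 : ℕ → (∀ M, AA M) → Prop
  | one : Cone0 0 (fun _ => 1)
  | zero (D : ℕ) : Cone0 D (fun _ => 0)
  | add {D : ℕ} {f g : ∀ M, AA M} : Cone0 D f → Cone0 D g → Cone0 D (fun M => f M + g M)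
  | mulq {D : ℕ} {f : ∀ M, AA M} : Cone0 D f → Cone0 D (fun M => qq M * f M)
  | mulel {D : ℕ} {f : ∀ M, AA M} (k : ℕ) (hk : 0 < k) :
      Cone0 D f → Cone0 (D + k) (fun M => el (xx M) k * f M)

inductive Cone1 : ℕ → (∀ M, CC M → AA M) → Prop
  | gen (s : ℕ) (hs : 1 ≤ s) : Cone1 s (fun M => E (qq M) (xx M) s)
  | zero (D : ℕ) : Cone1 D (fun _ _ => 0)
  | add {D : ℕ} {f g : ∀ M, CC M → AA M} :
      Cone1 D f → Cone1 D g → Cone1 D (fun M b => f M b + g M b)
  | mulq {D : ℕ} {f : ∀ M, CC M → AA M} : Cone1 D f → Cone1 D (fun M b => qq M * f M b)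
  | mulel {D : ℕ} {f : ∀ M, CC M → AA M} (k : ℕ) (hk : 0 < k) :
      Cone1 D f → Cone1 (D + k) (fun M b => el (xx M) k * f M b)

inductive Cone2 : ℕ → (∀ M, CC M → CC M → AA M) → Prop
  | genP (y : ℕ) : Cone2 (y + 2) (fun M => PP (qq M) (xx M) y)
  | genE (N i : ℕ) (hi : 1 ≤ i) (hN : 2 * i + 2 ≤ N) : Cone2 N (fun M => PsiE (qq M) (xx M) N i)
  | genO (N i : ℕ) (hN : 2 * i + 3 ≤ N) : Cone2 N (fun M => PsiO (qq M) (xx M) N i)
  | zero (D : ℕ) : Cone2 D (fun _ _ _ => 0)
  | add {D : ℕ} {f g : ∀ M, CC M → CC M → AA M} :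
      Cone2 D f → Cone2 D g → Cone2 D (fun M b c => f M b c + g M b c)
  | mulq {D : ℕ} {f : ∀ M, CC M → CC M → AA M} :
      Cone2 D f → Cone2 D (fun M b c => qq M * f M b c)
  | mulel {D : ℕ} {f : ∀ M, CC M → CC M → AA M} (k : ℕ) (hk : 0 < k) :
      Cone2 D f → Cone2 (D + k) (fun M b c => el (xx M) k * f M b c)
  | congr {D : ℕ} {f g : ∀ M, CC M → CC M → AA M} :
      Cone2 D f → (∀ M b c, b ≠ c → g M b c = f M b c) → Cone2 D g

/-! closure lemmas -/

lemma Cone0.cast {D D' : ℕ} {f : ∀ M, AA M} (h : D = D') (hf : Cone0 D f) : Cone0 D' f := h ▸ hf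
lemma Cone1.cast {D D' : ℕ} {f : ∀ M, CC M → AA M} (h : D = D') (hf : Cone1 D f) : Cone1 D' f :=
  h ▸ hf
lemma Cone2.cast {D D' : ℕ} {f : ∀ M, CC M → CC M → AA M} (h : D = D') (hf : Cone2 D f) :
    Cone2 D' f := h ▸ hf

lemma Cone0.mulpow {D : ℕ} {f : ∀ M, AA M} (hf : Cone0 D f) (k : ℕ) :
    Cone0 D (fun M => qq M ^ k * f M) := by
  induction k with
  | zero => simpa using hf
  | succ k ih =>
    have : (fun M => qq M ^ (k + 1) * f M) = fun M => qq M * (qq M ^ k * f M) := by
      funext M; ring
    rw [this]; exact ih.mulq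

lemma Cone0.mulqn {D : ℕ} {f : ∀ M, AA M} (hf : Cone0 D f) (k : ℕ) :
    Cone0 D (fun M => qn (qq M) k * f M) := by
  induction k with
  | zero => simpa [qn_zero] using Cone0.zero D
  | succ k ih =>
    have : (fun M => qn (qq M) (k + 1) * f M) = fun M => qn (qq M) k * f M + qq M ^ k * f M := by
      funext M; rw [qn_succ]; ring
    rw [this]; exact ih.add (hf.mulpow k)

lemma Cone1.mulpow {D : ℕ} {f : ∀ M, CC M → AA M} (hf : Cone1 D f) (k : ℕ) :
    Cone1 D (fun M b => qq M ^ k * f M b) := by
  induction k with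
  | zero => simpa using hf
  | succ k ih =>
    have : (fun M b => qq M ^ (k + 1) * f M b) = fun M b => qq M * (qq M ^ k * f M b) := by
      funext M b; ring
    rw [this]; exact ih.mulq

lemma Cone1.mulqn {D : ℕ} {f : ∀ M, CC M → AA M} (hf : Cone1 D f) (k : ℕ) :
    Cone1 D (fun M b => qn (qq M) k * f M b) := by
  induction k with
  | zero => simpa [qn_zero] using Cone1.zero D
  | succ k ih =>
    have : (fun M b => qn (qq M) (k + 1) * f M b) =
        fun M b => qn (qq M) k * f M b + qq M ^ k * f M b := by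
      funext M b; rw [qn_succ]; ring
    rw [this]; exact ih.add (hf.mulpow k)

lemma Cone1.sum {D : ℕ} {f : ℕ → ∀ M, CC M → AA M} (i : ℕ) (hf : ∀ j, j < i → Cone1 D (f j)) :
    Cone1 D (fun M b => ∑ j ∈ range i, f j M b) := by
  induction i with
  | zero => simpa using Cone1.zero D
  | succ i ih =>
    simp only [sum_range_succ]
    exact (ih fun j hj => hf j (by omega)).add (hf i (by omega))

lemma Cone2.mulpow {D : ℕ} {f : ∀ M, CC M → CC M → AA M} (hf : Cone2 D f) (k : ℕ) :
    Cone2 D (fun M b c => qq M ^ k * f M b c) := by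
  induction k with
  | zero => simpa using hf
  | succ k ih =>
    have : (fun M b c => qq M ^ (k + 1) * f M b c) = fun M b c => qq M * (qq M ^ k * f M b c) := by
      funext M b c; ring
    rw [this]; exact ih.mulq

lemma Cone2.mulqn {D : ℕ} {f : ∀ M, CC M → CC M → AA M} (hf : Cone2 D f) (k : ℕ) :
    Cone2 D (fun M b c => qn (qq M) k * f M b c) := by
  induction k with
  | zero => simpa [qn_zero] using Cone2.zero D
  | succ k ih =>
    have : (fun M b c => qn (qq M) (k + 1) * f M b c) =
        fun M b c => qn (qq M) k * f M b c + qq M ^ k * f M b c := by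
      funext M b c; rw [qn_succ]; ring
    rw [this]; exact ih.add (hf.mulpow k)

lemma Cone2.sum {D : ℕ} {f : ℕ → ∀ M, CC M → CC M → AA M} (i : ℕ)
    (hf : ∀ j, j < i → Cone2 D (f j)) :
    Cone2 D (fun M b c => ∑ j ∈ range i, f j M b c) := by
  induction i with
  | zero => simpa using Cone2.zero D
  | succ i ih =>
    simp only [sum_range_succ]
    exact (ih fun j hj => hf j (by omega)).add (hf i (by omega))

/-- the atom `x_c E_s(b)` -/
lemma addE_cone (s : ℕ) (hs : 1 ≤ s) :
    Cone2 (s + 1) (fun M b c => xx M c * E (qq M) (xx M) s b) := by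
  rcases Nat.lt_or_ge s 2 with h | h
  · have hs1 : s = 1 := by omega
    subst hs1
    refine Cone2.congr (Cone2.genP 0) ?_
    intro M b c _
    rw [E_one]
    simp [PP, QQ, cE', xs, pos]
    ring
  · refine Cone2.congr (Cone2.genO (s + 1) 0 (by omega)) ?_
    intro M b c _
    simp [PsiO, TT, SS, qi, E_one]
    ring

/-- a general elementary-multiple term -/
lemma term_cone (a k t s D : ℕ) (ht : 0 < t) (hs : 1 ≤ s) (hD : t + s + 1 = D) :
    Cone2 D (fun M b c => qq M ^ a * qn (qq M) k * el (xx M) t * (xx M c * E (qq M) (xx M) s b)) := by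
  have h1 := (((addE_cone s hs).mulel t ht).mulqn k).mulpow a
  refine (h1.cast (by omega : s + 1 + t = D)).congr ?_
  intro M b c _
  ring

lemma term1_cone (a k t s D : ℕ) (ht : 0 < t) (hs : 1 ≤ s) (hD : t + s = D) :
    Cone1 D (fun M b => qq M ^ a * qn (qq M) k * el (xx M) t * E (qq M) (xx M) s b) := by
  have h1 := (((Cone1.gen s hs).mulel t ht).mulqn k).mulpow a
  have h2 := h1.cast (by omega : s + t = D)
  have h3 : (fun M b => qq M ^ a * qn (qq M) k * el (xx M) t * E (qq M) (xx M) s b) =
      fun M b => qq M ^ a * (qn (qq M) k * (el (xx M) t * E (qq M) (xx M) s b)) := by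
    funext M b; ring
  rw [h3]; exact h2

lemma etN_cone (m N j : ℕ) (hj : j + 2 ≤ N) :
    Cone2 (N + 1) (fun M b c => etN (qq M) (xx M) m N j b c) := by
  unfold etN
  refine Cone2.add (term_cone _ _ _ _ _ (by omega) (by omega) (by omega))
    (term_cone _ _ _ _ _ (by omega) (by omega) (by omega))

lemma etR_cone (m N j : ℕ) (hj : j + 2 ≤ N) :
    Cone1 N (fun M b => etR (qq M) (xx M) m N j b) := by
  unfold etR
  have h2 := term1_cone 1 (m - j - 1) (j + 1) (N - j - 1) N (by omega) (by omega) (by omega)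
  have h2' : Cone1 N (fun M b => qq M * qn (qq M) (m - j - 1) * el (xx M) (j + 1)
      * E (qq M) (xx M) (N - j - 1) b) := by
    simpa using h2
  exact Cone1.add (term1_cone _ _ _ _ _ (by omega) (by omega) (by omega)) h2'

/-- transfer step -/
theorem Cone2.N2 {D : ℕ} {F : ∀ M, CC M → CC M → AA M} (hF : Cone2 D F) :
    Cone2 (D + 1) (fun M => N2 (qq M) (xx M) (F M)) := by
  induction hF with
  | genP y =>
    refine Cone2.congr (((Cone2.genP (y + 1)).add
      ((addE_cone (y + 2) (by omega)).mulqn y).mulq)) ?_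
    intro M b c _
    rw [N2_PP (qq M) (xx M) (qq_ne_one M)]
    ring
  | genE N i hi hN =>
    have h1 := Cone2.genO (N + 1) i (by omega)
    have h2 := ((addE_cone N (by omega)).mulqn (2 * i - 1)).mulq
    have h3 : Cone2 (N + 1) (fun M b c => ∑ j ∈ range i,
        qq M ^ j * etN (qq M) (xx M) (2 * i) N j b c) :=
      Cone2.sum i fun j hj => (etN_cone (2 * i) N j (by omega)).mulpow j
    refine Cone2.congr ((h1.add h2).add h3) ?_
    intro M b c hbc
    rw [N2_PsiE (qq M) (xx M) (qq_ne_one M) b c hbc N i hi hN]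
    ring
  | genO N i hN =>
    have h1 := Cone2.genE (N + 1) (i + 1) (by omega) (by omega)
    have h2 := ((addE_cone N (by omega)).mulqn (2 * i)).mulq
    have h4 := term_cone (i + 2) (N - i - 3) (N - i - 1) (i + 1) (N + 1)
      (by omega) (by omega) (by omega)
    have h3 : Cone2 (N + 1) (fun M b c => ∑ j ∈ range i,
        qq M ^ j * etN (qq M) (xx M) (2 * i + 1) N j b c) :=
      Cone2.sum i fun j hj => (etN_cone (2 * i + 1) N j (by omega)).mulpow j
    refine Cone2.congr (((h1.add h2).add h4).add h3) ?_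
    intro M b c hbc
    rw [N2_PsiO (qq M) (xx M) (qq_ne_one M) b c hbc N i hN]
    ring
  | zero D =>
    refine Cone2.congr (Cone2.zero (D + 1)) ?_
    intro M b c _
    simp [Vale.Agent.P066.N2]
  | add _ _ ih1 ih2 =>
    refine Cone2.congr (ih1.add ih2) ?_
    intro M b c _
    exact N2_add _ _ _ _ _ _
  | mulq _ ih =>
    refine Cone2.congr ih.mulq ?_
    intro M b c _
    exact N2_mul _ _ _ _ _ _
  | mulel k hk _ ih =>
    refine ((ih.mulel k hk).cast (by omega)).congr ?_
    intro M b c _
    exact N2_mul _ _ _ _ _ _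
  | @congr D f g _ hfg ih =>
    have : (fun M => Vale.Agent.P066.N2 (qq M) (xx M) (g M)) =
        fun M => Vale.Agent.P066.N2 (qq M) (xx M) (f M) := by
      funext M b c
      unfold Vale.Agent.P066.N2
      congr 1
      apply sum_congr rfl
      intro a _
      by_cases hab : a = b
      · subst hab; simp [ee]
      · rw [hfg M a b hab]
    rw [this]; exact ih

/-- removal of one mark out of two -/
theorem Cone2.R2 {D : ℕ} {F : ∀ M, CC M → CC M → AA M} (hF : Cone2 D F) :
    Cone1 D (fun M => R2 (qq M) (F M)) := by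
  induction hF with
  | genP y =>
    have h := (Cone1.gen (y + 2) (by omega)).mulqn (y + 1)
    have : (fun M => Vale.Agent.P066.R2 (qq M) (PP (qq M) (xx M) y)) =
        fun M b => qn (qq M) (y + 1) * E (qq M) (xx M) (y + 2) b := by
      funext M b
      exact R2_PP (qq M) (xx M) y b
    rw [this]; exact h
  | genE N i hi hN =>
    have h1 := (Cone1.gen N (by omega)).mulqn (2 * i)
    have h3 : Cone1 N (fun M b => ∑ j ∈ range i,
        qq M ^ j * etR (qq M) (xx M) (2 * i) N j b) :=
      Cone1.sum i fun j hj => (etR_cone (2 * i) N j (by omega)).mulpow j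
    have : (fun M => Vale.Agent.P066.R2 (qq M) (PsiE (qq M) (xx M) N i)) =
        fun M b => qn (qq M) (2 * i) * E (qq M) (xx M) N b
          + ∑ j ∈ range i, qq M ^ j * etR (qq M) (xx M) (2 * i) N j b := by
      funext M b
      exact R2_PsiE (qq M) (xx M) (qq_ne_one M) b N i hN
    rw [this]; exact h1.add h3
  | genO N i hN =>
    have h1 := (Cone1.gen N (by omega)).mulqn (2 * i + 1)
    have h4 := term1_cone (i + 1) (N - i - 2) (N - i - 1) (i + 1) N
      (by omega) (by omega) (by omega)
    have h3 : Cone1 N (fun M b => ∑ j ∈ range i,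
        qq M ^ j * etR (qq M) (xx M) (2 * i + 1) N j b) :=
      Cone1.sum i fun j hj => (etR_cone (2 * i + 1) N j (by omega)).mulpow j
    have : (fun M => Vale.Agent.P066.R2 (qq M) (PsiO (qq M) (xx M) N i)) =
        fun M b => qn (qq M) (2 * i + 1) * E (qq M) (xx M) N b
          + qq M ^ (i + 1) * qn (qq M) (N - i - 2) * el (xx M) (N - i - 1) * E (qq M) (xx M) (i + 1) b
          + ∑ j ∈ range i, qq M ^ j * etR (qq M) (xx M) (2 * i + 1) N j b := by
      funext M b
      exact R2_PsiO (qq M) (xx M) (qq_ne_one M) b N i hN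
    rw [this]; exact (h1.add h4).add h3
  | zero D =>
    have : (fun M => Vale.Agent.P066.R2 (qq M) (fun (_ _ : CC M) => (0 : AA M))) =
        fun M (b : CC M) => (0 : AA M) := by
      funext M b
      simp [Vale.Agent.P066.R2]
    rw [this]; exact Cone1.zero D
  | @add D f g _ _ ih1 ih2 =>
    have : (fun M => Vale.Agent.P066.R2 (qq M) (fun b c => f M b c + g M b c)) =
        fun M b => Vale.Agent.P066.R2 (qq M) (f M) b + Vale.Agent.P066.R2 (qq M) (g M) b := by
      funext M b
      exact R2_add _ _ _ _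
    rw [this]; exact ih1.add ih2
  | @mulq D f _ ih =>
    have : (fun M => Vale.Agent.P066.R2 (qq M) (fun b c => qq M * f M b c)) =
        fun M b => qq M * Vale.Agent.P066.R2 (qq M) (f M) b := by
      funext M b
      exact R2_mul _ _ _ _
    rw [this]; exact ih.mulq
  | @mulel D f k hk _ ih =>
    have : (fun M => Vale.Agent.P066.R2 (qq M) (fun b c => el (xx M) k * f M b c)) =
        fun M b => el (xx M) k * Vale.Agent.P066.R2 (qq M) (f M) b := by
      funext M b
      exact R2_mul _ _ _ _
    rw [this]; exact ih.mulel k hk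
  | @congr D f g _ hfg ih =>
    have : (fun M => Vale.Agent.P066.R2 (qq M) (g M)) =
        fun M => Vale.Agent.P066.R2 (qq M) (f M) := by
      funext M b
      unfold Vale.Agent.P066.R2
      apply sum_congr rfl
      intro a _
      by_cases hab : a = b
      · subst hab; simp [ee]
      · rw [hfg M a b hab]
    rw [this]; exact ih

/-- adding a mark to a one-mark function -/
theorem Cone1.addMark {D : ℕ} {f : ∀ M, CC M → AA M} (hf : Cone1 D f) :
    Cone2 (D + 1) (fun M b c => xx M c * f M b) := by
  induction hf with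
  | gen s hs => exact addE_cone s hs
  | zero D =>
    have : (fun M (b c : CC M) => xx M c * (0 : AA M)) = fun M (b c : CC M) => (0 : AA M) := by
      funext M b c; simp
    rw [this]; exact Cone2.zero _
  | @add D f g _ _ ih1 ih2 =>
    refine Cone2.congr (ih1.add ih2) ?_
    intro M b c _
    ring
  | @mulq D f _ ih =>
    refine Cone2.congr ih.mulq ?_
    intro M b c _
    ring
  | @mulel D f k hk _ ih =>
    refine ((ih.mulel k hk).cast (by omega)).congr ?_
    intro M b c _
    ring

/-- adding a mark to a scalar -/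
theorem Cone0.addMark {D : ℕ} {f : ∀ M, AA M} (hf : Cone0 D f) :
    Cone1 (D + 1) (fun M b => xx M b * f M) := by
  induction hf with
  | one =>
    have : (fun M (b : CC M) => xx M b * (1 : AA M)) = fun M => E (qq M) (xx M) 1 := by
      funext M b; rw [E_one, mul_one]
    rw [this]; exact Cone1.gen 1 le_rfl
  | zero D =>
    have : (fun M (b : CC M) => xx M b * (0 : AA M)) = fun M (b : CC M) => (0 : AA M) := by
      funext M b; simp
    rw [this]; exact Cone1.zero _
  | @add D f g _ _ ih1 ih2 =>
    have : (fun M (b : CC M) => xx M b * (f M + g M)) =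
        fun M b => xx M b * f M + xx M b * g M := by
      funext M b; ring
    rw [this]; exact ih1.add ih2
  | @mulq D f _ ih =>
    have : (fun M (b : CC M) => xx M b * (qq M * f M)) =
        fun M b => qq M * (xx M b * f M) := by
      funext M b; ring
    rw [this]; exact ih.mulq
  | @mulel D f k hk _ ih =>
    have : (fun M (b : CC M) => xx M b * (el (xx M) k * f M)) =
        fun M b => el (xx M) k * (xx M b * f M) := by
      funext M b; ring
    rw [this]; exact (ih.mulel k hk).cast (by omega)

section SumE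

variable {C : Type*} [LinearOrder C] [Fintype C] {A : Type*} [CommRing A] (q : A) (x : C → A)

lemma sum_E (s : ℕ) : ∑ c, E q x s c = qn q s * el x s := by
  have h := sum_W_E q x (fun _ => (1 : A)) s
  simp only [one_mul] at h
  rw [h]
  unfold el
  rw [mul_sum]
  apply sum_congr rfl
  intro U hU
  rw [S_all, (mem_powersetCard.mp hU).2]

end SumE

/-- removal of the last mark -/
theorem Cone1.sumMark {D : ℕ} {f : ∀ M, CC M → AA M} (hf : Cone1 D f) :
    Cone0 D (fun M => ∑ b, f M b) := by
  induction hf with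
  | gen s hs =>
    have h := ((Cone0.one.mulel s (by omega)).mulqn s).cast (by omega : 0 + s = s)
    have : (fun M => ∑ b, E (qq M) (xx M) s b) =
        fun M => qn (qq M) s * (el (xx M) s * 1) := by
      funext M; rw [sum_E, mul_one]
    rw [this]; exact h
  | zero D =>
    simpa using Cone0.zero D
  | @add D f g _ _ ih1 ih2 =>
    have : (fun M => ∑ b, (f M b + g M b)) = fun M => ∑ b, f M b + ∑ b, g M b := by
      funext M; rw [sum_add_distrib]
    rw [this]; exact ih1.add ih2
  | @mulq D f _ ih =>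
    have : (fun M => ∑ b, qq M * f M b) = fun M => qq M * ∑ b, f M b := by
      funext M; rw [mul_sum]
    rw [this]; exact ih.mulq
  | @mulel D f k hk _ ih =>
    have : (fun M => ∑ b, el (xx M) k * f M b) = fun M => el (xx M) k * ∑ b, f M b := by
      funext M; rw [mul_sum]
    rw [this]; exact ih.mulel k hk

/-- adding a part to a partition -/
def addPart {D : ℕ} (k : ℕ) (hk : 0 < k) (lam : Nat.Partition D) : Nat.Partition (D + k) where
  parts := k ::ₘ lam.parts
  parts_pos := by
    intro i hi
    rcases Multiset.mem_cons.mp hi with h | h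
    · omega
    · exact lam.parts_pos h
  parts_sum := by
    rw [Multiset.sum_cons, lam.parts_sum, add_comm]

/-- coefficient extraction -/
theorem Cone0.exists_coeff {D : ℕ} {f : ∀ M, AA M} (hf : Cone0 D f) :
    ∃ c : Nat.Partition D → Polynomial ℕ, ∀ M, f M =
      ∑ lam : Nat.Partition D, MvPolynomial.C ((c lam).map (Nat.castRingHom ℤ)) *
        (lam.parts.map (fun i => el (xx M) i)).prod := by
  induction hf with
  | one =>
    refine ⟨fun _ => 1, fun M => ?_⟩
    rw [Fintype.sum_subsingleton _ (default : Nat.Partition 0)]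
    have : (default : Nat.Partition 0).parts = 0 := Nat.Partition.partition_zero_parts _
    rw [this]
    simp
  | zero D =>
    refine ⟨fun _ => 0, fun M => ?_⟩
    simp
  | @add D f g _ _ ih1 ih2 =>
    obtain ⟨c1, h1⟩ := ih1
    obtain ⟨c2, h2⟩ := ih2
    refine ⟨fun lam => c1 lam + c2 lam, fun M => ?_⟩
    beta_reduce
    rw [h1 M, h2 M, ← sum_add_distrib]
    apply sum_congr rfl
    intro lam _
    rw [Polynomial.map_add, map_add]
    ring
  | @mulq D f _ ih =>
    obtain ⟨c, h⟩ := ih
    refine ⟨fun lam => Polynomial.X * c lam, fun M => ?_⟩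
    beta_reduce
    rw [h M, mul_sum]
    apply sum_congr rfl
    intro lam _
    rw [Polynomial.map_mul, Polynomial.map_X, map_mul]
    simp only [qq]
    ring
  | @mulel D f k hk _ ih =>
    obtain ⟨c, h⟩ := ih
    refine ⟨fun nu => ∑ lam ∈ univ.filter (fun lam => addPart k hk lam = nu), c lam, fun M => ?_⟩
    beta_reduce
    rw [h M, mul_sum]
    have hterm : ∀ lam : Nat.Partition D,
        el (xx M) k * (MvPolynomial.C ((c lam).map (Nat.castRingHom ℤ)) *
          (lam.parts.map (fun i => el (xx M) i)).prod) =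
        MvPolynomial.C ((c lam).map (Nat.castRingHom ℤ)) *
          ((addPart k hk lam).parts.map (fun i => el (xx M) i)).prod := by
      intro lam
      simp only [addPart, Multiset.map_cons, Multiset.prod_cons]
      ring
    simp only [hterm]
    rw [← sum_fiberwise (univ : Finset (Nat.Partition D)) (fun lam => addPart k hk lam)]
    apply sum_congr rfl
    intro nu _
    rw [Polynomial.map_sum, map_sum, sum_mul]
    apply sum_congr rfl
    intro lam hlam
    rw [(mem_filter.mp hlam).2]

end Vale.Agent.P066
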