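import Mathlib

namespace Vale.Agent.P066

open Finset

/-- `f` is a proper colouring of the natural unit interval graph of `h`, whose edges are
the pairs `a < b` with `b ≤ h a`. -/
def IsProperCol {n N : ℕ} (h : Fin n → Fin n) (f : Fin n → Fin N) : Prop :=
  ∀ a b : Fin n, a < b → b ≤ h a → f a ≠ f b

/-- number of edges `a < b`, `b ≤ h a`, with `f a < f b` -/
def ascCount {n N : ℕ} (h : Fin n → Fin n) (f : Fin n → Fin N) : ℕ :=
  (univ.filter (fun p : Fin n × Fin n => p.1 < p.2 ∧ p.2 ≤ h p.1 ∧ f p.1 < f p.2)).card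

open scoped Classical in
/-- chromatic quasisymmetric function of the graph of `h` in `N` variables, with coefficients
in the polynomial ring `ℤ[q]` -/
noncomputable def chromQ {n : ℕ} (h : Fin n → Fin n) (N : ℕ) :
    MvPolynomial (Fin N) (Polynomial ℤ) :=
  ∑ f ∈ univ.filter (fun f : Fin n → Fin N => IsProperCol h f),
    MvPolynomial.C (Polynomial.X ^ ascCount h f) * ∏ a, MvPolynomial.X (f a)

end Vale.Agent.P066
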