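import Vale.Agent.P066.Graph

set_option linter.unusedSectionVars false
set_option linter.unusedVariables false
set_option linter.unusedSimpArgs false

namespace Vale.Agent.P066

open Finset

lemma el_xx (M k : ℕ) : el (xx M) k = MvPolynomial.esymm (Fin M) (Polynomial ℤ) k := rfl

/-- forward degree -/
def dOf {n : ℕ} (h : Fin n → Fin n) (i : ℕ) : ℕ := if hi : i < n then (h ⟨i, hi⟩ : ℕ) - i else 0

lemma dOf_val {n : ℕ} (h : Fin n → Fin n) (i : Fin n) : dOf h (i : ℕ) = (h i : ℕ) - i := by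
  unfold dOf
  rw [dif_pos i.isLt]

lemma val_dOf {n : ℕ} (h : Fin n → Fin n) (hmono : Monotone h) (hle : ∀ i, i ≤ h i)
    (hband : ∀ i, (h i : ℕ) ≤ i + 2) : Val n (dOf h) := by
  intro i hi
  have h1 := dOf_val h ⟨i, hi⟩
  simp only at h1
  have h2 := hband ⟨i, hi⟩
  have h3 : ((h ⟨i, hi⟩ : Fin n) : ℕ) < n := (h ⟨i, hi⟩).isLt
  have h4 : i ≤ (h ⟨i, hi⟩ : ℕ) := hle ⟨i, hi⟩
  simp only at h2
  refine ⟨by omega, by omega, ?_⟩
  by_cases hi' : i + 1 < n
  · have h5 := dOf_val h ⟨i + 1, hi'⟩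
    simp only at h5
    have h6 : ((h ⟨i, hi⟩ : Fin n) : ℕ) ≤ (h ⟨i + 1, hi'⟩ : Fin n) :=
      hmono (by simp [Fin.le_def])
    omega
  · have : (h ⟨i, hi⟩ : ℕ) = i := by omega
    omega

lemma prod_edges {n N : ℕ} (h : Fin n → Fin n) (hle : ∀ i, i ≤ h i) (f : Fin n → Fin N) :
    (∏ i : Fin n, ∏ j : Fin n, (if i < j ∧ (j : ℕ) ≤ i + dOf h i then
        ee (qq N) (OrderDual.toDual (f i)) (OrderDual.toDual (f j)) else 1)) =
      by classical exact if IsProperCol h f then MvPolynomial.C (Polynomial.X ^ ascCount h f) else 0 := by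
  classical
  have hadj : ∀ i j : Fin n, ((j : ℕ) ≤ i + dOf h i) ↔ j ≤ h i := by
    intro i j
    rw [dOf_val, Fin.le_def]
    have := hle i
    rw [Fin.le_def] at this
    omega
  simp only [hadj]
  by_cases hp : IsProperCol h f
  · rw [if_pos hp]
    have h1 : ∀ i j : Fin n, (if i < j ∧ j ≤ h i then
        ee (qq N) (OrderDual.toDual (f i)) (OrderDual.toDual (f j)) else 1) =
        (if (i < j ∧ j ≤ h i ∧ f i < f j) then qq N else 1) := by
      intro i j
      by_cases hij : i < j ∧ j ≤ h i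
      · have hne := hp i j hij.1 hij.2
        rw [if_pos hij]
        unfold ee
        have hne' : OrderDual.toDual (f j) ≠ OrderDual.toDual (f i) := fun e =>
          hne (OrderDual.toDual.injective e).symm
        rw [if_neg hne']
        simp only [OrderDual.toDual_lt_toDual, hij.1, hij.2, true_and]
      · rw [if_neg hij]
        rw [if_neg]
        rintro ⟨a, b, _⟩
        exact hij ⟨a, b⟩
    simp only [h1]
    rw [← Fintype.prod_prod_type' (fun i j : Fin n => if (i < j ∧ j ≤ h i ∧ f i < f j) then qq N else 1)]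
    rw [prod_ite, prod_const_one, mul_one, prod_const]
    unfold ascCount qq
    rw [map_pow]
  · rw [if_neg hp]
    unfold IsProperCol at hp
    push Not at hp
    obtain ⟨a, b, hab, hb, hfab⟩ := hp
    apply prod_eq_zero (mem_univ a)
    apply prod_eq_zero (mem_univ b)
    rw [if_pos ⟨hab, hb⟩]
    simp [ee, hfab]

lemma chrom_eq {n : ℕ} (h : Fin n → Fin n) (hle : ∀ i, i ≤ h i) (N : ℕ) :
    chromQ h N = S0 (qq N) (xx N) n (dOf h) := by
  classical
  unfold chromQ S0 Zf
  rw [sum_filter]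
  rw [← Equiv.sum_comp ((Equiv.refl (Fin n)).arrowCongr (OrderDual.toDual (α := Fin N)))]
  apply sum_congr rfl
  intro f _
  have e1 : ∀ i : Fin n, ((Equiv.refl (Fin n)).arrowCongr (OrderDual.toDual (α := Fin N))) f i =
      OrderDual.toDual (f i) := fun i => rfl
  simp only [e1]
  rw [prod_edges h hle f]
  simp only [xx, OrderDual.ofDual_toDual, mul_one]
  by_cases hp : IsProperCol h f
  · simp only [hp, if_true]
    ring
  · simp [hp]

end Vale.Agent.P066
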