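import Vale.Agent.P066.Cone
import Vale.Agent.P066.Defs

set_option linter.unusedSectionVars false
set_option linter.unusedVariables false
set_option linter.unusedSimpArgs false

namespace Vale.Agent.P066

open Finset

section Generic

variable {C : Type*} [LinearOrder C] [Fintype C] {A : Type*} [CommRing A] (q : A) (x : C → A)

/-- partition function of colourings of `n` vertices with forward degrees `d` and
vertex potentials `φ` -/
def Zf (n : ℕ) (d : ℕ → ℕ) (φ : ℕ → C → A) : A :=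
  ∑ g : Fin n → C, (∏ i : Fin n, (x (g i) * φ i (g i))) *
    ∏ i : Fin n, ∏ j : Fin n, (if i < j ∧ (j : ℕ) ≤ i + d i then ee q (g i) (g j) else 1)

lemma Zf_succ (n : ℕ) (d : ℕ → ℕ) (φ : ℕ → C → A) :
    Zf q x (n + 1) d φ = ∑ c, x c * φ 0 c * Zf q x n (fun i => d (i + 1))
      (fun i v => φ (i + 1) v * (if i < d 0 then ee q c v else 1)) := by
  unfold Zf
  rw [← Equiv.sum_comp (Fin.consEquiv (fun _ : Fin (n + 1) => C)), Fintype.sum_prod_type]
  apply sum_congr rfl; intro c _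
  rw [mul_sum]
  apply sum_congr rfl; intro h _
  simp only [Fin.consEquiv_apply]
  rw [Fin.prod_univ_succ, Fin.prod_univ_succ]
  have h1 : (∏ j : Fin (n + 1), if (0 : Fin (n + 1)) < j ∧ (j : ℕ) ≤ ((0 : Fin (n + 1)) : ℕ) + d ((0 : Fin (n + 1)) : ℕ)
      then ee q ((Fin.cons c h : Fin (n + 1) → C) 0) ((Fin.cons c h : Fin (n + 1) → C) j) else 1)
      = ∏ j : Fin n, if (j : ℕ) < d 0 then ee q c (h j) else 1 := by
    rw [Fin.prod_univ_succ]
    simp only [Fin.cons_zero, Fin.cons_succ, lt_self_iff_false, false_and, if_false, one_mul]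
    apply prod_congr rfl
    intro j _
    simp only [Fin.succ_pos, true_and, Fin.val_succ, Fin.val_zero, zero_add]
    simp only [Nat.succ_le_iff, Nat.add_one_le_iff]
  have h2 : ∀ i : Fin n, (∏ j : Fin (n + 1), if i.succ < j ∧ (j : ℕ) ≤ (i.succ : ℕ) + d (i.succ : ℕ)
      then ee q ((Fin.cons c h : Fin (n + 1) → C) i.succ) ((Fin.cons c h : Fin (n + 1) → C) j) else 1)
      = ∏ j : Fin n, if i < j ∧ (j : ℕ) ≤ i + d ((i : ℕ) + 1) then ee q (h i) (h j) else 1 := by
    intro i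
    rw [Fin.prod_univ_succ]
    simp only [Fin.cons_succ, Fin.not_lt_zero, false_and, if_false, one_mul]
    apply prod_congr rfl
    intro j _
    simp only [Fin.succ_lt_succ_iff, Fin.val_succ]
    have : ((j : ℕ) + 1 ≤ (i : ℕ) + 1 + d ((i : ℕ) + 1)) ↔ ((j : ℕ) ≤ i + d ((i : ℕ) + 1)) := by omega
    simp only [this]
  rw [h1]
  simp only [h2]
  simp only [Fin.cons_zero, Fin.cons_succ, Fin.val_zero, Fin.val_succ]
  have h3 : (∏ i : Fin n, (x (h i) * (φ ((i : ℕ) + 1) (h i) *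
      (if (i : ℕ) < d 0 then ee q c (h i) else 1)))) =
      (∏ i : Fin n, (x (h i) * φ ((i : ℕ) + 1) (h i))) *
      ∏ i : Fin n, (if (i : ℕ) < d 0 then ee q c (h i) else 1) := by
    rw [← prod_mul_distrib]
    apply prod_congr rfl
    intro i _
    ring
  rw [h3]
  ring

/-- potential of a mark with `r` remaining neighbours -/
def pot (b : C) (r i : ℕ) (v : C) : A := if i < r then ee q b v else 1

def S0 (n : ℕ) (d : ℕ → ℕ) : A := Zf q x n d (fun _ _ => 1)

def S1 (n : ℕ) (d : ℕ → ℕ) (b : C) : A := x b * Zf q x n (fun i => d (i + 1)) (pot q b (d 0))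

def S2 (n : ℕ) (d : ℕ → ℕ) (b c : C) : A :=
  x b * x c * Zf q x n (fun i => d (i + 2)) (fun i v => pot q b (d 0 - 1) i v * pot q c (d 1) i v)

lemma S0_zero (d : ℕ → ℕ) : S0 q x 0 d = 1 := by
  simp [S0, Zf]

lemma S0_succ (n : ℕ) (d : ℕ → ℕ) : S0 q x (n + 1) d = ∑ b, S1 q x n d b := by
  unfold S0 S1
  rw [Zf_succ]
  apply sum_congr rfl; intro b _
  rw [mul_one]
  have : (fun (i : ℕ) (v : C) => (1 : A) * (if i < d 0 then ee q b v else 1)) = pot q b (d 0) := by
    funext i v; simp [pot]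
  rw [this]

lemma S1_of_zero (n : ℕ) (d : ℕ → ℕ) (h : d 0 = 0) (b : C) :
    S1 q x n d b = x b * S0 q x n (fun i => d (i + 1)) := by
  unfold S0 S1
  rw [h]
  have : pot q b 0 = fun (_ : ℕ) (_ : C) => (1 : A) := by
    funext i v; simp [pot]
  rw [this]

lemma S1_succ (n : ℕ) (d : ℕ → ℕ) (h : 1 ≤ d 0) (b : C) :
    S1 q x (n + 1) d b = ∑ c, ee q b c * S2 q x n d b c := by
  unfold S1 S2
  rw [Zf_succ, mul_sum]
  apply sum_congr rfl; intro c _
  have hp : pot q b (d 0) 0 c = ee q b c := by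
    simp [pot]; omega
  have hf : (fun (i : ℕ) (v : C) => pot q b (d 0) (i + 1) v * (if i < d (0 + 1) then ee q c v else 1))
      = fun i v => pot q b (d 0 - 1) i v * pot q c (d 1) i v := by
    funext i v
    have : (i + 1 < d 0) ↔ (i < d 0 - 1) := by omega
    simp [pot, this]
  rw [hp, hf]
  ring

lemma S2_of_one (n : ℕ) (d : ℕ → ℕ) (h : d 0 = 1) (a b : C) :
    S2 q x n d a b = x a * S1 q x n (fun i => d (i + 1)) b := by
  unfold S1 S2
  rw [h]
  have hf : (fun (i : ℕ) (v : C) => pot q a (1 - 1) i v * pot q b (d 1) i v)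
      = pot q b (d (0 + 1)) := by
    funext i v
    simp [pot]
  rw [hf]
  ring

lemma S2_of_two (n : ℕ) (d : ℕ → ℕ) (h : d 0 = 2) (h1 : 1 ≤ d 1) (a b : C) :
    S2 q x (n + 1) d a b =
      x a * ∑ c, ee q a c * ee q b c * S2 q x n (fun i => d (i + 1)) b c := by
  unfold S2
  rw [h, Zf_succ, mul_sum, mul_sum]
  apply sum_congr rfl; intro c _
  have hp1 : pot q a (2 - 1) 0 c = ee q a c := by
    simp [pot]
  have hp2 : pot q b (d 1) 0 c = ee q b c := by
    simp [pot]; omega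
  have hf : (fun (i : ℕ) (v : C) =>
      (pot q a (2 - 1) (i + 1) v * pot q b (d 1) (i + 1) v) * (if i < d (0 + 2) then ee q c v else 1))
      = fun i v => pot q b (d (0 + 1) - 1) i v * pot q c (d (1 + 1)) i v := by
    funext i v
    have : (i + 1 < d 1) ↔ (i < d 1 - 1) := by omega
    simp [pot, this]
  rw [hp1, hp2, hf]
  ring

lemma S2_of_two' (n : ℕ) (d : ℕ → ℕ) (h : d 0 = 2) (h1 : 1 ≤ d 1) (a b : C) :
    S2 q x (n + 1) d a b =
      N2 q x (fun c b => S2 q x n (fun i => d (i + 1)) b c) b a := by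
  rw [S2_of_two q x n d h h1 a b]
  unfold N2
  congr 1
  apply sum_congr rfl; intro c _
  ring

end Generic

/-- validity of a forward degree sequence: bandwidth two, staying inside the vertex set,
natural unit interval shape -/
def Val (n : ℕ) (d : ℕ → ℕ) : Prop :=
  ∀ i, i < n → d i ≤ 2 ∧ i + d i < n ∧ d i ≤ d (i + 1) + 1

lemma Val.shift {v : ℕ} {d : ℕ → ℕ} (h : Val (v + 1) d) : Val v (fun i => d (i + 1)) := by
  intro i hi
  obtain ⟨h1, h2, h3⟩ := h (i + 1) (by omega)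
  refine ⟨h1, ?_, h3⟩
  show i + d (i + 1) < v
  omega

lemma fam_S2_of_one (n : ℕ) (d : ℕ → ℕ) (h : d 0 = 1) :
    (fun M (c b : CC M) => S2 (qq M) (xx M) n d b c) =
      fun M c b => xx M b * S1 (qq M) (xx M) n (fun i => d (i + 1)) c := by
  funext M c b
  exact S2_of_one _ _ n d h b c

lemma fam_S2_of_two (n : ℕ) (d : ℕ → ℕ) (h : d 0 = 2) (h1 : 1 ≤ d 1) :
    (fun M (c b : CC M) => S2 (qq M) (xx M) (n + 1) d b c) =
      fun M => N2 (qq M) (xx M) (fun c b => S2 (qq M) (xx M) n (fun i => d (i + 1)) b c) := by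
  funext M c b
  exact S2_of_two' _ _ n d h h1 b c

lemma fam_S1_of_zero (n : ℕ) (d : ℕ → ℕ) (h : d 0 = 0) :
    (fun M => S1 (qq M) (xx M) n d) =
      fun M b => xx M b * S0 (qq M) (xx M) n (fun i => d (i + 1)) := by
  funext M b
  exact S1_of_zero _ _ n d h b

lemma fam_S1_succ (n : ℕ) (d : ℕ → ℕ) (h : 1 ≤ d 0) :
    (fun M => S1 (qq M) (xx M) (n + 1) d) =
      fun M => R2 (qq M) (fun c b => S2 (qq M) (xx M) n d b c) := by
  funext M b
  rw [S1_succ _ _ n d h b]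
  rfl

lemma fam_S0_succ (v : ℕ) (d : ℕ → ℕ) :
    (fun M => S0 (qq M) (xx M) (v + 1) d) = fun M => ∑ b, S1 (qq M) (xx M) v d b := by
  funext M
  exact S0_succ _ _ v d

lemma step2 (v : ℕ)
    (ih1 : ∀ n, n + 1 = v → ∀ d, Val v d → Cone1 v (fun M => S1 (qq M) (xx M) n d))
    (ih2 : ∀ n, n + 2 = v → ∀ d, Val v d → 1 ≤ d 0 →
      Cone2 v (fun M c b => S2 (qq M) (xx M) n d b c))
    (n : ℕ) (hn : n + 2 = v + 1) (d : ℕ → ℕ) (hd : Val (v + 1) d) (h1 : 1 ≤ d 0) :
    Cone2 (v + 1) (fun M c b => S2 (qq M) (xx M) n d b c) := by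
  obtain ⟨hd1, hd2, hd3⟩ := hd 0 (by omega)
  have hd' := hd.shift
  simp only [zero_add] at hd2 hd3
  rcases (by omega : d 0 = 1 ∨ d 0 = 2) with h | h
  · have hc := (ih1 n (by omega) _ hd').addMark
    rw [fam_S2_of_one n d h]; exact hc
  · obtain ⟨n', rfl⟩ : ∃ n', n = n' + 1 := ⟨n - 1, by omega⟩
    have hd1' : 1 ≤ d 1 := by omega
    have hc := (ih2 n' (by omega) _ hd' hd1').N2
    rw [fam_S2_of_two n' d h hd1']; exact hc

lemma step1 (v : ℕ)
    (ih0 : ∀ d, Val v d → Cone0 v (fun M => S0 (qq M) (xx M) v d))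
    (P2 : ∀ n, n + 2 = v + 1 → ∀ d, Val (v + 1) d → 1 ≤ d 0 →
        Cone2 (v + 1) (fun M c b => S2 (qq M) (xx M) n d b c))
    (n : ℕ) (hn : n + 1 = v + 1) (d : ℕ → ℕ) (hd : Val (v + 1) d) :
    Cone1 (v + 1) (fun M => S1 (qq M) (xx M) n d) := by
  obtain rfl : n = v := by omega
  obtain ⟨hd1, hd2, hd3⟩ := hd 0 (by omega)
  simp only [zero_add] at hd2 hd3
  rcases Nat.eq_zero_or_pos (d 0) with h | h
  · have hc := (ih0 _ hd.shift).addMark
    rw [fam_S1_of_zero n d h]; exact hc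
  · obtain ⟨n', rfl⟩ : ∃ n', n = n' + 1 := ⟨n - 1, by omega⟩
    have hc := (P2 n' (by omega) d hd h).R2
    rw [fam_S1_succ n' d h]; exact hc

theorem main_cones (v : ℕ) :
    (∀ d, Val v d → Cone0 v (fun M => S0 (qq M) (xx M) v d)) ∧
    (∀ n, n + 1 = v → ∀ d, Val v d → Cone1 v (fun M => S1 (qq M) (xx M) n d)) ∧
    (∀ n, n + 2 = v → ∀ d, Val v d → 1 ≤ d 0 →
      Cone2 v (fun M c b => S2 (qq M) (xx M) n d b c)) := by
  induction v with
  | zero =>
    refine ⟨?_, ?_, ?_⟩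
    · intro d _
      have : (fun M => S0 (qq M) (xx M) 0 d) = fun _ => 1 := by
        funext M; exact S0_zero _ _ _
      rw [this]; exact Cone0.one
    · intro n hn; omega
    · intro n hn; omega
  | succ v ih =>
    obtain ⟨ih0, ih1, ih2⟩ := ih
    have P2 := step2 v ih1 ih2
    have P1 := step1 v ih0 P2
    refine ⟨?_, P1, P2⟩
    intro d hd
    have hc := (P1 v rfl d hd).sumMark
    rw [fam_S0_succ v d]; exact hc

end Vale.Agent.P066
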